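import Vale.Agent.Lib.P254.Final
import Vale.Agent.Lib.P254c.Main6

/-!
# P254: the strong isotropic constant conjecture under joins, pyramids, products and free sums

With `isoPow K = det Σ_K / |K|^2 = L_K^{2n}`, `cN n = L_{Δ_n}^{2n}`, `r K = isoPow K / cN n`:
`r (join K K') = r K * r K'`, `r (pyramid K) = r K`, `isoPow (prod K K') = isoPow K * isoPow K'`,
`r (free K K') = r K * r K' * (1 - (n(n+2) - s)(m(m+2) - s') / ((n+1)(n+2)(m+1)(m+2)))` with `0 ≤ s ≤ n(n+2)`.
So the conjecture with its equality clause is preserved by the four operations, and its validity in dimension `n+1`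
implies its validity in dimension `n`; its validity in dimension `n` implies it for all pyramids, prisms and bipyramids
over `n`-dimensional convex bodies.
-/

namespace Vale.Agent.Results.P254.BClosure

open _root_.P254

theorem result :
    (∀ n : ℕ, 1 ≤ n → ∀ T : Set (E n), IsSimplex T → isoConst T = simplexConst n) ∧
    (∀ (n m : ℕ) (K : Set (E n)) (K' : Set (E m)), IsCompact K → IsCompact K' → 0 < vol K →
      0 < vol K' →
      isoPow (join K K') / cN (n + m + 1) = (isoPow K / cN n) * (isoPow K' / cN m) ∧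
      IsCompact (join K K') ∧ 0 < vol (join K K') ∧
      (Convex ℝ K → Convex ℝ K' → Convex ℝ (join K K')) ∧
      (1 ≤ n → 1 ≤ m → isoConst K ≤ simplexConst n → isoConst K' ≤ simplexConst m →
        isoConst (join K K') ≤ simplexConst (n + m + 1))) ∧
    (∀ (n : ℕ) (K : Set (E n)), IsCompact K → 0 < vol K →
      isoPow (pyramid K) / cN (n + 1) = isoPow K / cN n ∧
      IsCompact (pyramid K) ∧ 0 < vol (pyramid K) ∧ (Convex ℝ K → Convex ℝ (pyramid K)) ∧
      (1 ≤ n → (isoConst (pyramid K) ≤ simplexConst (n + 1) ↔ isoConst K ≤ simplexConst n))) ∧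
    (∀ (n m : ℕ) (K : Set (E n)) (K' : Set (E m)), IsCompact K → IsCompact K' → 0 < vol K →
      0 < vol K' →
      isoPow (prod K K') = isoPow K * isoPow K' ∧
      IsCompact (prod K K') ∧ 0 < vol (prod K K') ∧
      (Convex ℝ K → Convex ℝ K' → Convex ℝ (prod K K')) ∧
      (1 ≤ n → 1 ≤ m → isoConst K ≤ simplexConst n → isoConst K' ≤ simplexConst m →
        isoConst (prod K K') < simplexConst (n + m))) ∧
    (∀ (n m : ℕ) (K : Set (E n)) (K' : Set (E m)), 1 ≤ n → 1 ≤ m → IsCompact K → IsCompact K' →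
      0 < vol K → 0 < vol K' → Strong K → Strong K' → Strong (join K K')) ∧
    (∀ (n : ℕ) (K : Set (E n)), 1 ≤ n → IsCompact K → (interior K).Nonempty → 0 < vol K →
      (Strong (pyramid K) ↔ Strong K)) ∧
    (∀ n : ℕ, 1 ≤ n → StrongConj (n + 1) → StrongConj n) ∧
    (∀ (n m : ℕ) (K : Set (E n)) (K' : Set (E m)), IsCompact K → IsCompact K' → Convex ℝ K →
      Convex ℝ K' → (0 : E n) ∈ K → (0 : E m) ∈ K' → 0 < vol K → 0 < vol K' →
      free K K' = convexHull ℝ ((fun x : E n => Fin.append x (0 : E m)) '' K ∪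
        (fun y : E m => Fin.append (0 : E n) y) '' K') ∧
      IsCompact (free K K') ∧ Convex ℝ (free K K') ∧ 0 < vol (free K K') ∧
      (0 ≤ sOrigin K ∧ sOrigin K ≤ (n : ℝ) * ((n : ℝ) + 2)) ∧
      (0 ≤ sOrigin K' ∧ sOrigin K' ≤ (m : ℝ) * ((m : ℝ) + 2)) ∧
      isoPow (free K K') / cN (n + m) = (isoPow K / cN n) * (isoPow K' / cN m)
        * (1 - ((n : ℝ) * ((n : ℝ) + 2) - sOrigin K) * ((m : ℝ) * ((m : ℝ) + 2) - sOrigin K')
            / (((n : ℝ) + 1) * ((n : ℝ) + 2) * ((m : ℝ) + 1) * ((m : ℝ) + 2))) ∧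
      isoPow (free K K') / cN (n + m) ≤ (isoPow K / cN n) * (isoPow K' / cN m) ∧
      (1 ≤ n → 1 ≤ m → isoConst K ≤ simplexConst n → isoConst K' ≤ simplexConst m →
        isoConst (free K K') ≤ simplexConst (n + m)) ∧
      (1 ≤ n → 1 ≤ m → Strong K → Strong K' → Strong (free K K'))) ∧
    (∀ n : ℕ, 1 ≤ n → StrongConj n → ∀ K : Set (E n), IsCompact K → Convex ℝ K →
      (interior K).Nonempty →
      Strong (pyramid K) ∧
      (∀ a b : ℝ, a < b → isoConst (prod K (seg a b)) < simplexConst (n + 1)) ∧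
      ((0 : E n) ∈ K → ∀ a b : ℝ, a ≤ 0 → 0 ≤ b → a < b → Strong (free K (seg a b)))) :=
  ⟨fun n hn => (_root_.P254.main n hn).1,
    _root_.P254.main2.1, _root_.P254.main2.2.1, _root_.P254.main2.2.2,
    fun _ _ K K' hn hm hK hK' hv hv' h h' => strong_join hn hm K K' hK hK' hv hv' h h',
    fun _ K hn hK hint hv => strong_pyramid_iff hn K hK hint hv,
    fun _ hn h => strongConj_of_succ hn h,
    fun n m K K' hK hK' hc hc' h0 h0' hv hv' => main5 n m K K' hK hK' hc hc' h0 h0' hv hv',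
    fun n hn h K hK hc hint => main6 n hn h K hK hc hint⟩

end Vale.Agent.Results.P254.BClosure
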