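import Vale.Agent.Lib.P254.Final

/-!
# P254: the strong isotropic constant conjecture for polytopes with at most n+2 vertices

For every `n ≥ 1`:
* every `n`-simplex `T` of `ℝ^n` has `L_T = ((n!)^2 / ((n+1)^(n+1) (n+2)^n))^(1/(2n))`;
* every convex body of `ℝ^n` that is the convex hull of at most `n+2` points satisfies
  `L_K ≤ L_{Δ_n}`, with equality only if `K` is a simplex.
-/

namespace Vale.Agent.Results.P254.FewVertices

open _root_.P254

theorem result (n : ℕ) (hn : 1 ≤ n) :
    (∀ T : Set (E n), IsSimplex T → isoConst T = simplexConst n) ∧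
    (∀ s : Finset (E n), s.card ≤ n + 2 →
      (interior (convexHull ℝ (s : Set (E n)))).Nonempty →
        isoConst (convexHull ℝ (s : Set (E n))) ≤ simplexConst n ∧
        (isoConst (convexHull ℝ (s : Set (E n))) = simplexConst n →
          IsSimplex (convexHull ℝ (s : Set (E n))))) :=
  _root_.P254.main n hn

end Vale.Agent.Results.P254.FewVertices
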