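import Vale.Agent.Lib.P254.Final
import Vale.Agent.Lib.P254b.Main3

/-!
# P254: the strong isotropic constant conjecture under joins, pyramids and products

With `isoPow K = det Σ_K / |K|^2 = L_K^{2n}` and `cN n = L_{Δ_n}^{2n}`:
* `isoPow (join K K') / cN (n+m+1) = (isoPow K / cN n) * (isoPow K' / cN m)` exactly;
* `isoPow (pyramid K) / cN (n+1) = isoPow K / cN n`;
* `isoPow (prod K K') = isoPow K * isoPow K'`, and `cN n * cN m < cN (n+m)`.
So the conjecture (`Strong K`: `L_K ≤ L_{Δ_n}`, with equality only for simplices) is preserved by the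
three operations, and its validity in dimension `n+1` implies its validity in dimension `n`.
-/

namespace Vale.Agent.Results.P254.JoinsPyramidsProducts

open _root_.P254

theorem result :
    (∀ n : ℕ, 1 ≤ n → ∀ T : Set (E n), IsSimplex T → isoConst T = simplexConst n) ∧
    (∀ (n m : ℕ) (K : Set (E n)) (K' : Set (E m)), IsCompact K → IsCompact K' → 0 < vol K →
      0 < vol K' →
      isoPow (join K K') / cN (n + m + 1) = (isoPow K / cN n) * (isoPow K' / cN m) ∧
      IsCompact (join K K') ∧ 0 < vol (join K K') ∧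
      (Convex ℝ K → Convex ℝ K' → Convex ℝ (join K K')) ∧
      (1 ≤ n → 1 ≤ m → isoConst K ≤ simplexConst n → isoConst K' ≤ simplexConst m →
        isoConst (join K K') ≤ simplexConst (n + m + 1))) ∧
    (∀ (n : ℕ) (K : Set (E n)), IsCompact K → 0 < vol K →
      isoPow (pyramid K) / cN (n + 1) = isoPow K / cN n ∧
      IsCompact (pyramid K) ∧ 0 < vol (pyramid K) ∧ (Convex ℝ K → Convex ℝ (pyramid K)) ∧
      (1 ≤ n → (isoConst (pyramid K) ≤ simplexConst (n + 1) ↔ isoConst K ≤ simplexConst n))) ∧
    (∀ (n m : ℕ) (K : Set (E n)) (K' : Set (E m)), IsCompact K → IsCompact K' → 0 < vol K →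
      0 < vol K' →
      isoPow (prod K K') = isoPow K * isoPow K' ∧
      IsCompact (prod K K') ∧ 0 < vol (prod K K') ∧
      (Convex ℝ K → Convex ℝ K' → Convex ℝ (prod K K')) ∧
      (1 ≤ n → 1 ≤ m → isoConst K ≤ simplexConst n → isoConst K' ≤ simplexConst m →
        isoConst (prod K K') < simplexConst (n + m))) ∧
    (∀ (n m : ℕ) (K : Set (E n)) (K' : Set (E m)), 1 ≤ n → 1 ≤ m → IsCompact K → IsCompact K' →
      0 < vol K → 0 < vol K' → Strong K → Strong K' → Strong (join K K')) ∧
    (∀ (n : ℕ) (K : Set (E n)), 1 ≤ n → IsCompact K → (interior K).Nonempty → 0 < vol K →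
      (Strong (pyramid K) ↔ Strong K)) ∧
    (∀ n : ℕ, 1 ≤ n → StrongConj (n + 1) → StrongConj n) :=
  ⟨fun n hn => (_root_.P254.main n hn).1, _root_.P254.main2.1, _root_.P254.main2.2.1,
    _root_.P254.main2.2.2,
    fun _ _ K K' hn hm hK hK' hv hv' h h' => strong_join hn hm K K' hK hK' hv hv' h h',
    fun _ K hn hK hint hv => strong_pyramid_iff hn K hK hint hv,
    fun _ hn h => strongConj_of_succ hn h⟩

end Vale.Agent.Results.P254.JoinsPyramidsProducts
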